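import Vale.Agent.P038.Qt
import Vale.Agent.P038.Sink
import Vale.Agent.P038.Sub

set_option autoImplicit false

namespace Vale.Agent.Results.P038.SubstitutionClosure

open Vale.Agent.P038

/-- Partial result on Seymour's second neighbourhood conjecture: the weighted form holds for all
quasi-transitive oriented graphs and for all oriented graphs whose out-neighbourhoods have sinks,
it is preserved by substitution, and the conjecture holds for the whole class generated. -/
theorem result :
    -- (1) quasi-transitive oriented graphs (in particular tournaments), all positive weights
    (∀ (V : Type) [Fintype V] [Nonempty V] (r : V → V → Prop), Oriented r →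
      QuasiTransitive r → WSeymour r) ∧
    -- (2) every nonempty out-neighbourhood has a vertex without out-neighbours inside it
    (∀ (V : Type) [Fintype V] [Nonempty V] (r : V → V → Prop), Oriented r →
      LocalSink r → WSeymour r) ∧
    -- (3) substitution of arbitrary oriented graphs into a quotient with the weighted property
    (∀ (Q : Type) [Fintype Q] (H : Q → Type) [∀ q, Fintype (H q)] [∀ q, Nonempty (H q)]
      (rQ : Q → Q → Prop) (rH : ∀ q, H q → H q → Prop), Oriented rQ →
      (∀ q, Oriented (rH q)) → WSeymour rQ →
      Oriented (Subst rQ rH) ∧
      ((∀ q, WSeymour (rH q)) → WSeymour (Subst rQ rH)) ∧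
      ((∀ q, Seymour (rH q)) → Seymour (Subst rQ rH))) ∧
    -- (4) the generated class
    (∀ (V : Type) [Fintype V] (r : V → V → Prop), Cls V r →
      Nonempty V ∧ Oriented r ∧ WSeymour r ∧ Seymour r) :=
  ⟨qt, sink, sub, final qt sink⟩

end Vale.Agent.Results.P038.SubstitutionClosure
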